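import Vale.Agent.P088.H127.Ins2
import Vale.Agent.P088.H198.Defs2

/-!
# P088: `RowCGO` implies `RowEST`
-/

open MeasureTheory Set
open scoped ContDiff Matrix

noncomputable section

namespace Vale.Agent.P088.LR.H127

open Vale.Agent.P088.LR

variable {n : ℕ}

theorem es_continuous {c : Ix n → ℂ} (hc : RD c) (θ : V n) : Continuous (Es θ c) := by
  refine continuous_tsum (fun k => continuous_const.mul (ex_contDiff _).continuous)
    (sum_of_rd hc) fun k x => ?_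
  rw [norm_mul, ex_norm, mul_one]

/-- The identity `Star` with the two solutions, abstract form. -/
theorem star_eq' {s : MF n} (hs : SmM s) {Ω : Set (V n)} (hc : Ω ⊆ core n)
    (h1 : ∀ x ∉ Ω, s x = 1) (hst : Star Ω s) {ξ q : Ix n} (hq : q ≠ 0)
    (h : ∑ j, q j * ξ j = 0) {θ : V n} {y : Fin n → Ix n → ℂ} (hy : ∀ i, RD (y i))
    {W : V n → ℂ} (hWs : ContDiff ℝ ∞ W)
    (hWp : ∀ i x, pd i W x = exw (zW ξ q) x * (zW ξ q i + Es θ (y i) x))
    (hW : ∀ x ∈ Ω, dv s W x = 0) :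
    ∑ i, ∑ j, zU ξ q i * zW ξ q j * ft (ent s i j) (fr 0 ξ)
      + ∑ i, ∑ j, zU ξ q i * ∫ x, ent s i j x * (Es θ (y j) x * ex (-(fr 0 ξ)) x) = 0 := by
  have h2 := hst (exw (zU ξ q)) W (exw_contDiff _) hWs
    (fun x _ => dv_exw _ (sum_zU_sq hq h) x) hW
  have h3 : bl Ω (fun x => s x - 1) (exw (zU ξ q)) W
      = ∫ x, ∑ i, ∑ j, (zU ξ q i * zW ξ q j * (ent s i j x * ex (-(fr 0 ξ)) x)
          + zU ξ q i * (ent s i j x * (Es θ (y j) x * ex (-(fr 0 ξ)) x))) := by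
    have h5 : bl Ω (fun x => s x - 1) (exw (zU ξ q)) W
        = ∫ x in Ω, ∑ i, ∑ j, (zU ξ q i * zW ξ q j * (ent s i j x * ex (-(fr 0 ξ)) x)
          + zU ξ q i * (ent s i j x * (Es θ (y j) x * ex (-(fr 0 ξ)) x))) := by
      rw [bl]
      refine integral_congr_ae (Filter.Eventually.of_forall fun x => ?_)
      refine Finset.sum_congr rfl fun i _ => Finset.sum_congr rfl fun j _ => ?_
      have h4 : (((fun x => s x - 1 : MF n) x i j : ℝ) : ℂ) = ent s i j x := rfl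
      simp only [h4, pd_exw, hWp, ← exw_mul ξ q x]
      ring
    rw [h5]
    refine setIntegral_eq_integral_of_forall_compl_eq_zero fun x hx => ?_
    refine Finset.sum_eq_zero fun i _ => Finset.sum_eq_zero fun j _ => ?_
    rw [ent_zero h1 i j hx]
    ring
  have hi1 : ∀ i j, Integrable fun x => ent s i j x * ex (-(fr 0 ξ)) x :=
    fun i j => integrable_ent hs hc h1 i j (ex_contDiff _).continuous
  have hi2 : ∀ i j, Integrable fun x => ent s i j x * (Es θ (y j) x * ex (-(fr 0 ξ)) x) :=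
    fun i j => integrable_ent hs hc h1 i j ((es_continuous (hy j) θ).mul
      (ex_contDiff _).continuous)
  rw [h3, integral_finsetSum] at h2
  · rw [← h2, ← Finset.sum_add_distrib]
    refine Finset.sum_congr rfl fun i _ => ?_
    rw [integral_finsetSum]
    · rw [← Finset.sum_add_distrib]
      refine Finset.sum_congr rfl fun j _ => ?_
      rw [integral_add ((hi1 i j).const_mul _) ((hi2 i j).const_mul _), integral_const_mul,
        integral_const_mul, ft]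
    · exact fun j _ => ((hi1 i j).const_mul _).add ((hi2 i j).const_mul _)
  · exact fun i _ => integrable_finsetSum _ fun j _ =>
      ((hi1 i j).const_mul _).add ((hi2 i j).const_mul _)

/-- **Insertion**, abstract form. -/
theorem ins' (hA3 : RowA3) {s : MF n} (hs : SmM s) (hsy : ∀ x, (s x).IsSymm)
    {Ω : Set (V n)} (hc : Ω ⊆ core n) (h1 : ∀ x ∉ Ω, s x = 1)
    (hdf : ∀ (ξ : V n) j, ∑ i, (ξ i : ℂ) * ft (ent s i j) ξ = 0) (hst : Star Ω s)
    {ξ q : Ix n} (hξ : ξ ≠ 0) (hq : q ≠ 0) (h : ∑ j, q j * ξ j = 0) {θ : V n}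
    {y : Fin n → Ix n → ℂ} (hy : ∀ i, RD (y i)) {W : V n → ℂ} (hWs : ContDiff ℝ ∞ W)
    (hWp : ∀ i x, pd i W x = exw (zW ξ q) x * (zW ξ q i + Es θ (y i) x))
    (hW : ∀ x ∈ Ω, dv s W x = 0) :
    ‖∑ i, ∑ j, (q i : ℂ) * q j * ft (ent s i j) (fr 0 ξ)‖
      ≤ 2 * ln q ^ 2 / (Real.pi * ln ξ) * (∑ i, ∑ j, nm 0 (cf 0 (ent s i j)))
        * ∑ j, nm 0 (y j) := by
  have hx := ln_pos hξ
  have hQ := ln_pos hq
  have hpi := Real.pi_pos
  have h2 := star_eq' hs hc h1 hst hq h hy hWs hWp hW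
  have h3 : ∀ j, ∑ i, ((ξ i : ℝ) : ℂ) * ft (ent s i j) (fr 0 ξ) = 0 := by
    intro j
    rw [← hdf (fr 0 ξ) j]
    exact Finset.sum_congr rfl fun i _ => by simp [fr]
  rw [main_term (H := fun i j => ft (ent s i j) (fr 0 ξ))
    (fun i j => by rw [ent_symm hsy i j]) h3] at h2
  set S : ℂ := ∑ i, ∑ j, (q i : ℂ) * q j * ft (ent s i j) (fr 0 ξ) with hS
  set a : ℝ := ∑ i, ∑ j, nm 0 (cf 0 (ent s i j)) with ha
  set Y : ℝ := ∑ j, nm 0 (y j) with hY
  set P : ℝ := (Real.pi * ln ξ / ln q) ^ 2 with hP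
  have hP0 : 0 < P := by positivity
  set T : ℂ := ∑ i, ∑ j, zU ξ q i * ∫ x, ent s i j x * (Es θ (y j) x * ex (-(fr 0 ξ)) x) with hT
  have h4 : (P : ℂ) * S = T := by linear_combination -h2
  have hYj : ∀ j, nm 0 (y j) ≤ Y := fun j =>
    Finset.single_le_sum (f := fun j => nm 0 (y j)) (fun _ _ => nm_nonneg' _) (Finset.mem_univ j)
  clear_value Y S a P
  have h5 : ‖T‖ ≤ 2 * Real.pi * ln ξ * a * Y := by
    rw [hT]
    calc _ ≤ ∑ i, ∑ j, 2 * Real.pi * ln ξ * (nm 0 (cf 0 (ent s i j)) * Y) := by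
          refine (norm_sum_le _ _).trans (Finset.sum_le_sum fun i _ => ?_)
          refine (norm_sum_le _ _).trans (Finset.sum_le_sum fun j _ => ?_)
          rw [norm_mul]
          refine mul_le_mul (zU_norm hq i) ?_ (norm_nonneg _) (by positivity)
          refine rem_bound hA3 hs hc h1 i j fun x => ?_
          rw [norm_mul, ex_norm, mul_one]
          exact (es_bound (hy j) _ _).trans (hYj j)
      _ = 2 * Real.pi * ln ξ * a * Y := by
          rw [ha, Finset.mul_sum, Finset.sum_mul]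
          refine Finset.sum_congr rfl fun i _ => ?_
          rw [Finset.mul_sum, Finset.sum_mul]
          exact Finset.sum_congr rfl fun j _ => by ring
  have h6 : P * ‖S‖ ≤ 2 * Real.pi * ln ξ * a * Y := by
    refine le_trans (le_of_eq ?_) h5
    rw [← h4, norm_mul, Complex.norm_real, Real.norm_eq_abs, abs_of_pos hP0]
  have h7 : ‖S‖ ≤ 2 * Real.pi * ln ξ * a * Y / P := by
    rw [le_div_iff₀ hP0]
    linarith
  refine h7.trans (le_of_eq ?_)
  rw [hP]
  field_simp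

theorem ln_le_wt (q : Ix n) : ln q ≤ wt q := by
  have h0 := one_le_wt q
  rw [ln]
  refine Real.sqrt_le_iff.mpr ⟨by linarith, ?_⟩
  have h1 : ∑ j, (q j : ℝ) ^ 2 ≤ ∑ j, |(q j : ℝ)| * wt q := by
    refine Finset.sum_le_sum fun j _ => ?_
    rw [← sq_abs, pow_two]
    exact mul_le_mul_of_nonneg_left (abs_le_wt q j) (abs_nonneg _)
  have h2 : ∑ j, |(q j : ℝ)| ≤ wt q := by
    rw [wt]
    linarith
  calc ∑ j, (q j : ℝ) ^ 2 ≤ ∑ j, |(q j : ℝ)| * wt q := h1
    _ = (∑ j, |(q j : ℝ)|) * wt q := by rw [Finset.sum_mul]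
    _ ≤ wt q * wt q := mul_le_mul_of_nonneg_right h2 (by linarith)
    _ = wt q ^ 2 := by ring

theorem zz_eq (ξ q : Ix n) (j : Fin n) :
    zz (Real.pi * ln ξ / ln q) ξ q j = zW ξ q j := by
  apply Complex.ext
  · simp [zz, zW, et]
  · simp [zz, zW]

/-- **EST from CGO.** -/
theorem est_of_cgo (hA3 : RowA3) (hC : RowCGO) : RowEST := by
  intro n
  obtain ⟨C, hC0, hC⟩ := hC n
  refine ⟨32 * C, by positivity, ?_⟩
  intro Ω hΩ hc s hs hsy h1 hdf hst a ha ξ q hξ h hwq hsm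
  have ha0 : 0 ≤ a := by
    rw [ha]
    exact Finset.sum_nonneg fun i _ => Finset.sum_nonneg fun j _ => nm_nonneg' _
  have hw := one_le_wt ξ
  by_cases hq : q = 0
  · subst hq
    have h2 : ∑ i, ∑ j, (((0 : Ix n) i : ℤ) : ℂ) * (((0 : Ix n) j : ℤ) : ℂ)
        * ft (ent s i j) (fr 0 ξ) = 0 :=
      Finset.sum_eq_zero fun i _ => Finset.sum_eq_zero fun j _ => by simp
    rw [h2, norm_zero]
    positivity
  have hsm' : C * wt ξ ^ 8 * a ≤ 1 := by
    refine le_trans ?_ hsm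
    have : 0 ≤ C * wt ξ ^ 8 * a := by positivity
    nlinarith
  obtain ⟨θ, y, W, hy, hWs, hWp, hW, hY⟩ := hC Ω hΩ hc s hs hsy h1 hdf a ha ξ q hξ hq h hwq
    hsm' (ln ξ) (ln q) (Real.pi * ln ξ / ln q) rfl rfl rfl
  have hWp' : ∀ i x, pd i W x = exw (zW ξ q) x * (zW ξ q i + Es θ (y i) x) := by
    intro i x
    rw [hWp i x, exw]
    simp only [zz_eq]
  have h3 := ins' hA3 hs hsy hc h1 hdf hst hξ hq h hy hWs hWp' fun x hx => hW x (core_sub (hc hx))
  rw [← ha] at h3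
  refine h3.trans ?_
  have hx1 := one_le_ln hξ
  have hpi : (1 : ℝ) ≤ Real.pi := by linarith [Real.pi_gt_three]
  have hY0 : 0 ≤ ∑ j, nm 0 (y j) := Finset.sum_nonneg fun j _ => nm_nonneg' _
  have h4 : 2 * ln q ^ 2 / (Real.pi * ln ξ) ≤ 32 * wt ξ ^ 4 := by
    rw [div_le_iff₀ (by positivity)]
    have h5 : ln q ^ 2 ≤ 16 * wt ξ ^ 4 := by
      have h6 : ln q ≤ 4 * wt ξ ^ 2 := (ln_le_wt q).trans hwq
      have h7 : 0 ≤ ln q := Real.sqrt_nonneg _
      calc ln q ^ 2 ≤ (4 * wt ξ ^ 2) ^ 2 := pow_le_pow_left₀ h7 h6 2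
        _ = 16 * wt ξ ^ 4 := by ring
    have h8 : (1 : ℝ) ≤ Real.pi * ln ξ := by nlinarith
    have h9 : 0 ≤ 32 * wt ξ ^ 4 := by positivity
    nlinarith
  calc 2 * ln q ^ 2 / (Real.pi * ln ξ) * a * ∑ j, nm 0 (y j)
      ≤ 32 * wt ξ ^ 4 * a * (C * wt ξ ^ 5 * a) := by
        refine mul_le_mul (mul_le_mul_of_nonneg_right h4 ha0) hY hY0 (by positivity)
    _ = 32 * C * wt ξ ^ 9 * a ^ 2 := by ring
    _ ≤ 32 * C * wt ξ ^ 16 * a ^ 2 := by
        have : wt ξ ^ 9 ≤ wt ξ ^ 16 := pow_le_pow_right₀ hw (by norm_num)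
        gcongr

end Vale.Agent.P088.LR.H127
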