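import Vale.Agent.P088.H127.Sym

/-!
# P088, row EST: insertion of the two complex geometric optics solutions in the identity `Star`
-/

open MeasureTheory Set
open scoped ContDiff Matrix

noncomputable section

namespace Vale.Agent.P088.LR.H127

open Vale.Agent.P088.LR

variable {n : ℕ}

/-! ## Exponentials -/

/-- `e^{z · x}`. -/
def exw (z : Fin n → ℂ) (x : V n) : ℂ := Complex.exp (∑ j, z j * (x j : ℂ))

/-- The linear form `z · x`. -/
def lz (z : Fin n → ℂ) : V n →L[ℝ] ℂ :=
  ∑ j, z j • (Complex.ofRealCLM.comp (ContinuousLinearMap.proj (R := ℝ) (φ := fun _ : Fin n => ℝ) j))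

theorem lz_apply (z : Fin n → ℂ) (x : V n) : lz z x = ∑ j, z j * (x j : ℂ) := by
  simp [lz]

theorem exw_eq (z : Fin n → ℂ) : exw z = fun x => Complex.exp (lz z x) := by
  funext x
  rw [exw, lz_apply]

theorem exw_contDiff (z : Fin n → ℂ) : ContDiff ℝ ∞ (exw z) := by
  rw [exw_eq]
  exact Complex.contDiff_exp.comp (lz z).contDiff

theorem exw_diff (z : Fin n → ℂ) : Differentiable ℝ (exw z) :=
  (exw_contDiff z).differentiable (by simp)

theorem lz_single (z : Fin n → ℂ) (i : Fin n) : lz z (Pi.single i 1) = z i := by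
  rw [lz_apply, Finset.sum_eq_single i]
  · simp
  · intro j _ hj
    simp [Pi.single_eq_of_ne hj]
  · intro h
    exact absurd (Finset.mem_univ i) h

theorem pd_exw (z : Fin n → ℂ) (i : Fin n) (x : V n) : pd i (exw z) x = z i * exw z x := by
  have h1 : HasFDerivAt (exw z) (Complex.exp (lz z x) • lz z) x := by
    rw [exw_eq]
    exact ((lz z).hasFDerivAt (x := x)).cexp
  rw [pd, h1.fderiv, ContinuousLinearMap.smul_apply, lz_single, smul_eq_mul, exw_eq, mul_comm]

theorem pd_mul' {f g : V n → ℂ} (hf : Differentiable ℝ f) (hg : Differentiable ℝ g) (i : Fin n)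
    (x : V n) : pd i (fun y => f y * g y) x = pd i f x * g x + f x * pd i g x := by
  have h1 := ((hf x).hasFDerivAt.mul (hg x).hasFDerivAt).fderiv
  have h2 : fderiv ℝ (fun y => f y * g y) x = f x • fderiv ℝ g x + g x • fderiv ℝ f x := h1
  rw [pd, h2, ContinuousLinearMap.add_apply, ContinuousLinearMap.smul_apply,
    ContinuousLinearMap.smul_apply, smul_eq_mul, smul_eq_mul, pd, pd]
  ring

theorem pd_const_add (a : ℂ) (f : V n → ℂ) (i : Fin n) (x : V n) :
    pd i (fun y => a + f y) x = pd i f x := by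
  rw [pd, pd, fderiv_const_add]

theorem pd_const_mul (a : ℂ) {f : V n → ℂ} (hf : Differentiable ℝ f) (i : Fin n) (x : V n) :
    pd i (fun y => a * f y) x = a * pd i f x := by
  rw [pd, fderiv_const_mul (hf x), ContinuousLinearMap.smul_apply, smul_eq_mul, pd]

/-- `Δ e^{z·x} = (z·z) e^{z·x}`. -/
theorem dv_exw (z : Fin n → ℂ) (hz : ∑ j, z j ^ 2 = 0) (x : V n) :
    dv (fun _ => 1) (exw z) x = 0 := by
  have h1 : ∀ i, (fun y : V n => ∑ j, (((fun _ => 1 : MF n) y i j : ℝ) : ℂ) * pd j (exw z) y)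
      = fun y => z i * exw z y := by
    intro i
    funext y
    rw [Finset.sum_eq_single i]
    · simp [pd_exw]
    · intro j _ hj
      simp [Matrix.one_apply_ne' hj]
    · intro h
      exact absurd (Finset.mem_univ i) h
  have h2 : ∀ i, pd i (fun y : V n => ∑ j, (((fun _ => 1 : MF n) y i j : ℝ) : ℂ) * pd j (exw z) y) x
      = z i ^ 2 * exw z x := by
    intro i
    rw [h1 i, pd_const_mul _ (exw_diff z), pd_exw]
    ring
  rw [dv, Finset.sum_congr rfl fun i _ => h2 i, ← Finset.sum_mul, hz, zero_mul]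

/-! ## Fourier series -/

theorem one_le_wt (k : Ix n) : 1 ≤ wt k := by
  rw [wt]
  have : 0 ≤ ∑ j, |(k j : ℝ)| := Finset.sum_nonneg fun _ _ => abs_nonneg _
  linarith

theorem abs_le_wt (k : Ix n) (j : Fin n) : |(k j : ℝ)| ≤ wt k := by
  rw [wt]
  have : |(k j : ℝ)| ≤ ∑ j, |(k j : ℝ)| :=
    Finset.single_le_sum (f := fun j => |(k j : ℝ)|) (fun _ _ => abs_nonneg _) (Finset.mem_univ j)
  linarith

theorem ex_norm (ξ x : V n) : ‖ex ξ x‖ = 1 := by
  have h : 2 * Real.pi * Complex.I * ((∑ j, ξ j * x j : ℝ) : ℂ)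
      = ((2 * Real.pi * ∑ j, ξ j * x j : ℝ) : ℂ) * Complex.I := by
    push_cast
    ring
  rw [ex, h, Complex.norm_exp_ofReal_mul_I]

theorem sum_of_rd {c : Ix n → ℂ} (hc : RD c) : Summable fun k => ‖c k‖ := by
  have := hc 0
  simpa using this

theorem nm_zero (c : Ix n → ℂ) : nm 0 c = ∑' k, ‖c k‖ := by simp [nm]

theorem summable_es {c : Ix n → ℂ} (hc : RD c) (θ x : V n) :
    Summable fun k => c k * ex (fr θ k) x := by
  apply Summable.of_norm
  refine (sum_of_rd hc).congr fun k => ?_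
  rw [norm_mul, ex_norm, mul_one]

theorem es_bound {c : Ix n → ℂ} (hc : RD c) (θ x : V n) : ‖Es θ c x‖ ≤ nm 0 c := by
  rw [nm_zero, Es]
  have h1 : ∀ k, ‖c k * ex (fr θ k) x‖ = ‖c k‖ := fun k => by rw [norm_mul, ex_norm, mul_one]
  have h2 : Summable fun k => ‖c k * ex (fr θ k) x‖ := by
    simp only [h1]
    exact sum_of_rd hc
  have h3 := norm_tsum_le_tsum_norm h2
  simp only [h1] at h3
  exact h3

theorem nm_nonneg' (c : Ix n → ℂ) : 0 ≤ nm 0 c := by
  rw [nm_zero]
  exact tsum_nonneg fun _ => norm_nonneg _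

theorem rd_const_mul {c : Ix n → ℂ} (hc : RD c) (a : ℂ) : RD fun k => a * c k := by
  intro m
  refine ((hc m).mul_left ‖a‖).congr fun k => ?_
  rw [norm_mul]
  ring

theorem rd_of_le {c d : Ix n → ℂ} (hc : RD c) (B : ℝ) (h : ∀ k, ‖d k‖ ≤ B * wt k * ‖c k‖) :
    RD d := by
  intro m
  refine Summable.of_nonneg_of_le (fun k => ?_) (fun k => ?_) ((hc (m + 1)).mul_left B)
  · have := one_le_wt k
    positivity
  · have h1 := one_le_wt k
    calc wt k ^ m * ‖d k‖ ≤ wt k ^ m * (B * wt k * ‖c k‖) :=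
          mul_le_mul_of_nonneg_left (h k) (by positivity)
      _ = B * (wt k ^ (m + 1) * ‖c k‖) := by ring

theorem fr_le (θ : V n) (k : Ix n) (j : Fin n) : |fr θ k j| ≤ (1 + |θ j|) * wt k := by
  have h1 := abs_le_wt k j
  have h2 := one_le_wt k
  have h3 := abs_nonneg (θ j)
  calc |fr θ k j| ≤ |(k j : ℝ)| + |θ j| := abs_add_le _ _
    _ ≤ wt k + |θ j| * wt k := by nlinarith
    _ = _ := by ring

theorem norm_two_pi_I (t : ℝ) : ‖2 * Real.pi * Complex.I * ((t : ℝ) : ℂ)‖ = 2 * Real.pi * |t| := by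
  rw [norm_mul, norm_mul, Complex.norm_I, mul_one, norm_mul, Complex.norm_real, Complex.norm_real,
    Real.norm_eq_abs, Real.norm_eq_abs, abs_of_pos Real.pi_pos]
  norm_num

theorem rd_fr {c : Ix n → ℂ} (hc : RD c) (θ : V n) (j : Fin n) :
    RD fun k => 2 * Real.pi * Complex.I * ((fr θ k j : ℝ) : ℂ) * c k := by
  refine rd_of_le hc (2 * Real.pi * (1 + |θ j|)) fun k => ?_
  rw [norm_mul, norm_two_pi_I]
  have h1 := fr_le θ k j
  have hpi := Real.pi_pos
  calc 2 * Real.pi * |fr θ k j| * ‖c k‖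
      ≤ 2 * Real.pi * ((1 + |θ j|) * wt k) * ‖c k‖ := by gcongr
    _ = _ := by ring

theorem rd_add {c d : Ix n → ℂ} (hc : RD c) (hd : RD d) : RD fun k => c k + d k := by
  intro m
  refine Summable.of_nonneg_of_le (fun k => ?_) (fun k => ?_) ((hc m).add (hd m))
  · have := one_le_wt k
    positivity
  · have h1 := one_le_wt k
    calc wt k ^ m * ‖c k + d k‖ ≤ wt k ^ m * (‖c k‖ + ‖d k‖) :=
          mul_le_mul_of_nonneg_left (norm_add_le _ _) (by positivity)
      _ = _ := by ring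

theorem es_add {c d : Ix n → ℂ} (hc : RD c) (hd : RD d) (θ x : V n) :
    Es θ (fun k => c k + d k) x = Es θ c x + Es θ d x := by
  rw [Es, Es, Es, ← (summable_es hc θ x).tsum_add (summable_es hd θ x)]
  exact tsum_congr fun k => by ring

theorem es_mul (a : ℂ) (c : Ix n → ℂ) (θ x : V n) :
    Es θ (fun k => a * c k) x = a * Es θ c x := by
  rw [Es, Es, ← tsum_mul_left]
  exact tsum_congr fun k => by ring

/-- The gradient of `c` against `z'`. -/
theorem rd_lam {c : Ix n → ℂ} (hc : RD c) (ξ q : Ix n) (j : Fin n) :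
    RD fun k => lam ξ q k j * c k := by
  have h := rd_add (rd_fr hc (th q) j) (rd_const_mul hc (zW ξ q j))
  have h2 : (fun k => lam ξ q k j * c k) = fun k =>
      2 * Real.pi * Complex.I * ((fr (th q) k j : ℝ) : ℂ) * c k + zW ξ q j * c k := by
    funext k
    rw [lam]
    ring
  rw [h2]
  exact h

/-- The second solution. -/
def WW (ξ q : Ix n) (c : Ix n → ℂ) (x : V n) : ℂ := exw (zW ξ q) x * (1 + Es (th q) c x)

theorem WW_contDiff (hA1 : RowA1) {c : Ix n → ℂ} (hc : RD c) (ξ q : Ix n) :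
    ContDiff ℝ ∞ (WW ξ q c) :=
  (exw_contDiff _).mul (contDiff_const.add (hA1 (th q) c hc).1)

theorem pd_WW (hA1 : RowA1) {c : Ix n → ℂ} (hc : RD c) (ξ q : Ix n) (j : Fin n) (x : V n) :
    pd j (WW ξ q c) x
      = exw (zW ξ q) x * (zW ξ q j + Es (th q) (fun k => lam ξ q k j * c k) x) := by
  have hd : Differentiable ℝ (Es (th q) c) := (hA1 (th q) c hc).1.differentiable (by simp)
  have h1 : pd j (WW ξ q c) x = pd j (exw (zW ξ q)) x * (1 + Es (th q) c x)
      + exw (zW ξ q) x * pd j (fun y => 1 + Es (th q) c y) x :=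
    pd_mul' (exw_diff _) ((differentiable_const _).add hd) j x
  have h2 : Es (th q) (fun k => lam ξ q k j * c k) x
      = Es (th q) (fun k => 2 * Real.pi * Complex.I * ((fr (th q) k j : ℝ) : ℂ) * c k) x
        + zW ξ q j * Es (th q) c x := by
    rw [← es_mul, ← es_add (rd_fr hc (th q) j) (rd_const_mul hc (zW ξ q j))]
    rw [show (fun k => lam ξ q k j * c k) = fun k =>
      2 * Real.pi * Complex.I * ((fr (th q) k j : ℝ) : ℂ) * c k + zW ξ q j * c k from by
        funext k
        rw [lam]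
        ring]
  rw [h1, pd_exw, pd_const_add, (hA1 (th q) c hc).2 j x, h2]
  ring

end Vale.Agent.P088.LR.H127
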