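import Vale.Agent.P088.H127.Ins

/-!
# P088, row EST: insertion (integrals)
-/

open MeasureTheory Set
open scoped ContDiff Matrix

noncomputable section

namespace Vale.Agent.P088.LR.H127

open Vale.Agent.P088.LR

variable {n : ℕ}

/-! ## The cube and the core -/

theorem core_eq : core n = Set.pi univ fun _ : Fin n => Set.Icc (1 / 4 : ℝ) (3 / 4) := by
  ext x
  simp only [core, Set.mem_ofPred_eq, Set.mem_univ_pi, Set.mem_Icc]

theorem cube_eq : cube n = Set.pi univ fun _ : Fin n => Set.Ioo (0 : ℝ) 1 := by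
  ext x
  simp only [cube, Set.mem_ofPred_eq, Set.mem_univ_pi, Set.mem_Ioo]

theorem isCompact_core : IsCompact (core n) := by
  rw [core_eq]
  exact isCompact_univ_pi fun _ => isCompact_Icc

theorem core_sub : core n ⊆ cube n := fun x hx j => by
  have := hx j
  constructor
  · linarith [this.1]
  · linarith [this.2]

theorem volume_cube : volume (cube n) = 1 := by
  rw [cube_eq, Real.volume_pi_Ioo]
  simp

theorem ent_contDiff {s : MF n} (hs : SmM s) (i j : Fin n) : ContDiff ℝ ∞ (ent s i j) := by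
  have h1 : ContDiff ℝ ∞ fun x => s x i j - (1 : Matrix (Fin n) (Fin n) ℝ) i j :=
    (hs i j).sub contDiff_const
  exact Complex.ofRealCLM.contDiff.comp h1

theorem ent_zero {s : MF n} {Ω : Set (V n)} (h1 : ∀ x ∉ Ω, s x = 1) (i j : Fin n) {x : V n}
    (hx : x ∉ Ω) : ent s i j x = 0 := by
  rw [ent, h1 x hx]
  simp

theorem ent_support {s : MF n} {Ω : Set (V n)} (hc : Ω ⊆ core n) (h1 : ∀ x ∉ Ω, s x = 1)
    (i j : Fin n) : tsupport (ent s i j) ⊆ core n := by
  refine closure_minimal (fun x hx => ?_) isCompact_core.isClosed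
  by_contra hn
  exact hx (ent_zero h1 i j fun hΩ => hn (hc hΩ))

theorem ent_compact {s : MF n} {Ω : Set (V n)} (hc : Ω ⊆ core n) (h1 : ∀ x ∉ Ω, s x = 1)
    (i j : Fin n) : HasCompactSupport (ent s i j) :=
  HasCompactSupport.of_support_subset_isCompact isCompact_core
    ((subset_tsupport _).trans (ent_support hc h1 i j))

theorem ent_symm {s : MF n} (hsy : ∀ x, (s x).IsSymm) (i j : Fin n) :
    ent s i j = ent s j i := by
  funext x
  have h1 : s x i j = s x j i := (hsy x).apply j i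
  rw [ent, ent, h1]
  rcases eq_or_ne i j with rfl | h
  · rfl
  · rw [Matrix.one_apply_ne h, Matrix.one_apply_ne' h]

theorem ex_contDiff (ξ : V n) : ContDiff ℝ ∞ (ex ξ) := by
  have h : ex ξ = exw fun j => 2 * Real.pi * Complex.I * (ξ j : ℂ) := by
    funext x
    rw [ex, exw]
    congr 1
    push_cast
    rw [Finset.mul_sum]
    exact Finset.sum_congr rfl fun j _ => by ring
  rw [h]
  exact exw_contDiff _

theorem integrable_ent {s : MF n} (hs : SmM s) {Ω : Set (V n)} (hc : Ω ⊆ core n)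
    (h1 : ∀ x ∉ Ω, s x = 1) (i j : Fin n) {g : V n → ℂ} (hg : Continuous g) :
    Integrable fun x => ent s i j x * g x := by
  have h : Continuous fun x => ent s i j x * g x := (ent_contDiff hs i j).continuous.mul hg
  exact h.integrable_of_hasCompactSupport ((ent_compact hc h1 i j).mul_right)

/-- `s - 1` is bounded by the `ℓ¹` norm of its coefficients. -/
theorem ent_bound (hA3 : RowA3) {s : MF n} (hs : SmM s) {Ω : Set (V n)} (hc : Ω ⊆ core n)
    (h1 : ∀ x ∉ Ω, s x = 1) (i j : Fin n) (x : V n) :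
    ‖ent s i j x‖ ≤ nm 0 (cf 0 (ent s i j)) := by
  obtain ⟨C, -, hC⟩ := hA3 n 0
  obtain ⟨h2, h3, -⟩ := hC (ent s i j) (ent_contDiff hs i j)
    ((ent_support hc h1 i j).trans core_sub) 0 (fun j => by simp)
  by_cases hx : x ∈ Ω
  · rw [h3 x (core_sub (hc hx))]
    exact es_bound h2 0 x
  · rw [ent_zero h1 i j hx, norm_zero]
    exact nm_nonneg' _

/-- The remainder. -/
theorem rem_bound (hA3 : RowA3) {s : MF n} (hs : SmM s) {Ω : Set (V n)}
    (hc : Ω ⊆ core n) (h1 : ∀ x ∉ Ω, s x = 1) (i j : Fin n) {g : V n → ℂ} {Y : ℝ}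
    (hY : ∀ x, ‖g x‖ ≤ Y) :
    ‖∫ x, ent s i j x * g x‖ ≤ nm 0 (cf 0 (ent s i j)) * Y := by
  have h2 : ∫ x, ent s i j x * g x = ∫ x in cube n, ent s i j x * g x := by
    refine (setIntegral_eq_integral_of_forall_compl_eq_zero fun x hx => ?_).symm
    rw [ent_zero h1 i j fun hΩ => hx (core_sub (hc hΩ)), zero_mul]
  rw [h2]
  have h3 : volume (cube n) < ⊤ := by
    rw [volume_cube]
    exact ENNReal.one_lt_top
  have h4 := norm_setIntegral_le_of_norm_le_const (μ := volume) h3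
    (f := fun x => ent s i j x * g x) (C := nm 0 (cf 0 (ent s i j)) * Y) fun x _ => by
      rw [norm_mul]
      exact mul_le_mul (ent_bound hA3 hs hc h1 i j x) (hY x) (norm_nonneg _) (nm_nonneg' _)
  refine h4.trans (le_of_eq ?_)
  rw [measureReal_def, volume_cube]
  simp

theorem exw_mul (ξ q : Ix n) (x : V n) :
    exw (zU ξ q) x * exw (zW ξ q) x = ex (-(fr 0 ξ)) x := by
  rw [exw, exw, ex, ← Complex.exp_add]
  congr 1
  rw [← Finset.sum_add_distrib]
  push_cast
  rw [Finset.mul_sum]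
  refine Finset.sum_congr rfl fun j _ => ?_
  rw [← add_mul, zU_add_zW]
  simp only [Pi.neg_apply, fr, Pi.zero_apply, add_zero]
  push_cast
  ring

/-- The identity `Star` with the two solutions. -/
theorem star_eq (hA1 : RowA1) {s : MF n} (hs : SmM s) {Ω : Set (V n)} (hc : Ω ⊆ core n)
    (h1 : ∀ x ∉ Ω, s x = 1) (hst : Star Ω s) {ξ q : Ix n} (hq : q ≠ 0)
    (h : ∑ j, q j * ξ j = 0) {c : Ix n → ℂ} (hrd : RD c)
    (hW : ∀ x ∈ Ω, dv s (WW ξ q c) x = 0) :
    ∑ i, ∑ j, zU ξ q i * zW ξ q j * ft (ent s i j) (fr 0 ξ)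
      + ∑ i, ∑ j, zU ξ q i * ∫ x, ent s i j x *
          (Es (th q) (fun k => lam ξ q k j * c k) x * ex (-(fr 0 ξ)) x) = 0 := by
  have h2 := hst (exw (zU ξ q)) (WW ξ q c) (exw_contDiff _) (WW_contDiff hA1 hrd ξ q)
    (fun x _ => dv_exw _ (sum_zU_sq hq h) x) hW
  have hE : ∀ j, ContDiff ℝ ∞ (Es (th q) fun k => lam ξ q k j * c k) :=
    fun j => (hA1 (th q) _ (rd_lam hrd ξ q j)).1
  have h3 : bl Ω (fun x => s x - 1) (exw (zU ξ q)) (WW ξ q c)
      = ∫ x, ∑ i, ∑ j, (zU ξ q i * zW ξ q j * (ent s i j x * ex (-(fr 0 ξ)) x)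
          + zU ξ q i * (ent s i j x *
            (Es (th q) (fun k => lam ξ q k j * c k) x * ex (-(fr 0 ξ)) x))) := by
    have h5 : bl Ω (fun x => s x - 1) (exw (zU ξ q)) (WW ξ q c)
        = ∫ x in Ω, ∑ i, ∑ j, (zU ξ q i * zW ξ q j * (ent s i j x * ex (-(fr 0 ξ)) x)
          + zU ξ q i * (ent s i j x *
            (Es (th q) (fun k => lam ξ q k j * c k) x * ex (-(fr 0 ξ)) x))) := by
      rw [bl]
      refine integral_congr_ae (Filter.Eventually.of_forall fun x => ?_)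
      refine Finset.sum_congr rfl fun i _ => Finset.sum_congr rfl fun j _ => ?_
      have h4 : (((fun x => s x - 1 : MF n) x i j : ℝ) : ℂ) = ent s i j x := rfl
      simp only [h4, pd_exw, pd_WW hA1 hrd, ← exw_mul ξ q x]
      ring
    rw [h5]
    refine setIntegral_eq_integral_of_forall_compl_eq_zero fun x hx => ?_
    refine Finset.sum_eq_zero fun i _ => Finset.sum_eq_zero fun j _ => ?_
    rw [ent_zero h1 i j hx]
    ring
  have hi1 : ∀ i j, Integrable fun x => ent s i j x * ex (-(fr 0 ξ)) x :=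
    fun i j => integrable_ent hs hc h1 i j (ex_contDiff _).continuous
  have hi2 : ∀ i j, Integrable fun x => ent s i j x *
      (Es (th q) (fun k => lam ξ q k j * c k) x * ex (-(fr 0 ξ)) x) :=
    fun i j => integrable_ent hs hc h1 i j ((hE j).continuous.mul (ex_contDiff _).continuous)
  rw [h3, integral_finsetSum] at h2
  · rw [← h2, ← Finset.sum_add_distrib]
    refine Finset.sum_congr rfl fun i _ => ?_
    rw [integral_finsetSum]
    · rw [← Finset.sum_add_distrib]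
      refine Finset.sum_congr rfl fun j _ => ?_
      rw [integral_add ((hi1 i j).const_mul _) ((hi2 i j).const_mul _), integral_const_mul,
        integral_const_mul, ft]
    · exact fun j _ => ((hi1 i j).const_mul _).add ((hi2 i j).const_mul _)
  · exact fun i _ => integrable_finsetSum _ fun j _ =>
      ((hi1 i j).const_mul _).add ((hi2 i j).const_mul _)

/-- The main term: `z h z' = - (π² |ξ|² / |q|²) h(q, q)` if `h ξ = 0`. -/
theorem main_term {H : Fin n → Fin n → ℂ} (hsy : ∀ i j, H i j = H j i) {ξ q : Ix n}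
    (hξ : ∀ j, ∑ i, ((ξ i : ℝ) : ℂ) * H i j = 0) :
    ∑ i, ∑ j, zU ξ q i * zW ξ q j * H i j
      = -(((Real.pi * ln ξ / ln q) ^ 2 : ℝ) : ℂ) * ∑ i, ∑ j, (q i : ℂ) * q j * H i j := by
  set A : ℂ := ((Real.pi * ln ξ / ln q : ℝ) : ℂ) with hA
  have hU : ∀ i, zU ξ q i = A * q i - Real.pi * ((ξ i : ℝ) : ℂ) * Complex.I := by
    intro i
    rw [zU, et, hA]
    push_cast
    ring
  have hW : ∀ i, zW ξ q i = -(A * q i) - Real.pi * ((ξ i : ℝ) : ℂ) * Complex.I := by
    intro i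
    rw [zW, et, hA]
    push_cast
    ring
  have e1 : ∑ i, ∑ j, (q i : ℂ) * (((ξ j : ℝ) : ℂ) * H i j) = 0 := by
    refine Finset.sum_eq_zero fun i _ => ?_
    rw [← Finset.mul_sum]
    have : ∑ j, ((ξ j : ℝ) : ℂ) * H i j = 0 := by
      rw [← hξ i]
      exact Finset.sum_congr rfl fun j _ => by rw [hsy i j]
    rw [this, mul_zero]
  have e2 : ∑ i, ∑ j, (q j : ℂ) * (((ξ i : ℝ) : ℂ) * H i j) = 0 := by
    rw [Finset.sum_comm]
    refine Finset.sum_eq_zero fun j _ => ?_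
    rw [← Finset.mul_sum, hξ j, mul_zero]
  have e3 : ∑ i, ∑ j, ((ξ j : ℝ) : ℂ) * (((ξ i : ℝ) : ℂ) * H i j) = 0 := by
    rw [Finset.sum_comm]
    refine Finset.sum_eq_zero fun j _ => ?_
    rw [← Finset.mul_sum, hξ j, mul_zero]
  have h1 : ∑ i, ∑ j, zU ξ q i * zW ξ q j * H i j
      = -(A ^ 2) * ∑ i, ∑ j, (q i : ℂ) * q j * H i j
        - A * Real.pi * Complex.I * ∑ i, ∑ j, (q i : ℂ) * (((ξ j : ℝ) : ℂ) * H i j)
        + A * Real.pi * Complex.I * ∑ i, ∑ j, (q j : ℂ) * (((ξ i : ℝ) : ℂ) * H i j)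
        - Real.pi ^ 2 * ∑ i, ∑ j, ((ξ j : ℝ) : ℂ) * (((ξ i : ℝ) : ℂ) * H i j) := by
    simp only [Finset.mul_sum]
    rw [← Finset.sum_sub_distrib, ← Finset.sum_add_distrib, ← Finset.sum_sub_distrib]
    refine Finset.sum_congr rfl fun i _ => ?_
    rw [← Finset.sum_sub_distrib, ← Finset.sum_add_distrib, ← Finset.sum_sub_distrib]
    refine Finset.sum_congr rfl fun j _ => ?_
    rw [hU, hW]
    linear_combination (Real.pi : ℂ) ^ 2 * ((ξ j : ℝ) : ℂ) * ((ξ i : ℝ) : ℂ) * H i j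
      * Complex.I_sq
  rw [h1, e1, e2, e3, hA]
  push_cast
  ring

/-- **Insertion.** -/
theorem ins (hA1 : RowA1) (hA3 : RowA3) {s : MF n} (hs : SmM s) (hsy : ∀ x, (s x).IsSymm)
    {Ω : Set (V n)} (hc : Ω ⊆ core n) (h1 : ∀ x ∉ Ω, s x = 1)
    (hdf : ∀ (ξ : V n) j, ∑ i, (ξ i : ℂ) * ft (ent s i j) ξ = 0) (hst : Star Ω s)
    {ξ q : Ix n} (hξ : ξ ≠ 0) (hq : q ≠ 0) (h : ∑ j, q j * ξ j = 0) {c : Ix n → ℂ} (hrd : RD c)
    (hW : ∀ x ∈ Ω, dv s (WW ξ q c) x = 0) :
    ‖∑ i, ∑ j, (q i : ℂ) * q j * ft (ent s i j) (fr 0 ξ)‖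
      ≤ 2 * ln q ^ 2 / (Real.pi * ln ξ) * (∑ i, ∑ j, nm 0 (cf 0 (ent s i j)))
        * ∑ j, nm 0 fun k => lam ξ q k j * c k := by
  have hx := ln_pos hξ
  have hQ := ln_pos hq
  have hpi := Real.pi_pos
  have h2 := star_eq hA1 hs hc h1 hst hq h hrd hW
  have h3 : ∀ j, ∑ i, ((ξ i : ℝ) : ℂ) * ft (ent s i j) (fr 0 ξ) = 0 := by
    intro j
    rw [← hdf (fr 0 ξ) j]
    exact Finset.sum_congr rfl fun i _ => by simp [fr]
  rw [main_term (H := fun i j => ft (ent s i j) (fr 0 ξ))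
    (fun i j => by rw [ent_symm hsy i j]) h3] at h2
  set S : ℂ := ∑ i, ∑ j, (q i : ℂ) * q j * ft (ent s i j) (fr 0 ξ) with hS
  set a : ℝ := ∑ i, ∑ j, nm 0 (cf 0 (ent s i j)) with ha
  set Y : ℝ := ∑ j, nm 0 fun k => lam ξ q k j * c k with hY
  set P : ℝ := (Real.pi * ln ξ / ln q) ^ 2 with hP
  have hP0 : 0 < P := by positivity
  set T : ℂ := ∑ i, ∑ j, zU ξ q i * ∫ x, ent s i j x *
    (Es (th q) (fun k => lam ξ q k j * c k) x * ex (-(fr 0 ξ)) x) with hT
  have h4 : (P : ℂ) * S = T := by linear_combination -h2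
  have hYj : ∀ j, nm 0 (fun k => lam ξ q k j * c k) ≤ Y := fun j =>
    Finset.single_le_sum (f := fun j => nm 0 fun k => lam ξ q k j * c k)
      (fun _ _ => nm_nonneg' _) (Finset.mem_univ j)
  clear_value Y S a P
  have h5 : ‖T‖ ≤ 2 * Real.pi * ln ξ * a * Y := by
    rw [hT]
    calc _ ≤ ∑ i, ∑ j, 2 * Real.pi * ln ξ * (nm 0 (cf 0 (ent s i j)) * Y) := by
          refine (norm_sum_le _ _).trans (Finset.sum_le_sum fun i _ => ?_)
          refine (norm_sum_le _ _).trans (Finset.sum_le_sum fun j _ => ?_)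
          rw [norm_mul]
          refine mul_le_mul (zU_norm hq i) ?_ (norm_nonneg _) (by positivity)
          refine rem_bound hA3 hs hc h1 i j fun x => ?_
          rw [norm_mul, ex_norm, mul_one]
          exact (es_bound (rd_lam hrd ξ q j) _ _).trans (hYj j)
      _ = 2 * Real.pi * ln ξ * a * Y := by
          rw [ha, Finset.mul_sum, Finset.sum_mul]
          refine Finset.sum_congr rfl fun i _ => ?_
          rw [Finset.mul_sum, Finset.sum_mul]
          exact Finset.sum_congr rfl fun j _ => by ring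
  have h6 : P * ‖S‖ ≤ 2 * Real.pi * ln ξ * a * Y := by
    refine le_trans (le_of_eq ?_) h5
    rw [← h4, norm_mul, Complex.norm_real, Real.norm_eq_abs, abs_of_pos hP0]
  have h7 : ‖S‖ ≤ 2 * Real.pi * ln ξ * a * Y / P := by
    rw [le_div_iff₀ hP0]
    linarith
  refine h7.trans (le_of_eq ?_)
  rw [hP]
  field_simp

end Vale.Agent.P088.LR.H127
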