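import Vale.Agent.P088.H198.Defs

/-!
# P088, row EST: the vectors of complex geometric optics and the symbol on the shifted lattice
-/

open MeasureTheory Set
open scoped ContDiff Matrix

noncomputable section

namespace Vale.Agent.P088.LR.H127

open Vale.Agent.P088.LR

variable {n : ℕ}

/-- Euclidean length of an integer vector. -/
def ln (ξ : Ix n) : ℝ := Real.sqrt (∑ j, (ξ j : ℝ) ^ 2)

/-- The shift `θ = q / (2 |q|²)`. -/
def th (q : Ix n) : V n := fun j => (q j : ℝ) / (2 * ln q ^ 2)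

/-- `η = (π |ξ| / |q|) q`. -/
def et (ξ q : Ix n) (j : Fin n) : ℝ := Real.pi * ln ξ / ln q * q j

/-- `z = η - i π ξ`. -/
def zU (ξ q : Ix n) (j : Fin n) : ℂ :=
  ((et ξ q j : ℝ) : ℂ) - ((Real.pi * ξ j : ℝ) : ℂ) * Complex.I

/-- `z' = -η - i π ξ`. -/
def zW (ξ q : Ix n) (j : Fin n) : ℂ :=
  -((et ξ q j : ℝ) : ℂ) - ((Real.pi * ξ j : ℝ) : ℂ) * Complex.I

/-- `λ(k) = 2 π i (k + θ) + z'`. -/
def lam (ξ q : Ix n) (k : Ix n) (j : Fin n) : ℂ :=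
  2 * Real.pi * Complex.I * ((fr (th q) k j : ℝ) : ℂ) + zW ξ q j

/-- `p(k) = λ(k) · λ(k)`. -/
def sym (ξ q : Ix n) (k : Ix n) : ℂ := ∑ j, lam ξ q k j ^ 2

theorem sum_nonneg' (ξ : Ix n) : 0 ≤ ∑ j, (ξ j : ℝ) ^ 2 :=
  Finset.sum_nonneg fun _ _ => sq_nonneg _

theorem ln_sq (ξ : Ix n) : ln ξ ^ 2 = ∑ j, (ξ j : ℝ) ^ 2 := Real.sq_sqrt (sum_nonneg' ξ)

theorem one_le_ln {ξ : Ix n} (h : ξ ≠ 0) : 1 ≤ ln ξ := by
  obtain ⟨j, hj⟩ : ∃ j, ξ j ≠ 0 := by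
    by_contra hn
    apply h
    funext j
    by_contra hj
    exact hn ⟨j, hj⟩
  have h1 : (1 : ℝ) ≤ (ξ j : ℝ) ^ 2 := by
    have h2 : (1 : ℤ) ≤ (ξ j) ^ 2 := by
      have : 0 < (ξ j) ^ 2 := by positivity
      omega
    exact_mod_cast h2
  have h3 : (ξ j : ℝ) ^ 2 ≤ ∑ j, (ξ j : ℝ) ^ 2 :=
    Finset.single_le_sum (f := fun j => (ξ j : ℝ) ^ 2) (fun _ _ => sq_nonneg _)
      (Finset.mem_univ j)
  rw [ln, Real.one_le_sqrt]
  linarith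

theorem ln_pos {ξ : Ix n} (h : ξ ≠ 0) : 0 < ln ξ := lt_of_lt_of_le one_pos (one_le_ln h)

theorem lam_re (ξ q k : Ix n) (j : Fin n) : (lam ξ q k j).re = -et ξ q j := by
  simp [lam, zW]

theorem lam_im (ξ q k : Ix n) (j : Fin n) :
    (lam ξ q k j).im = 2 * Real.pi * fr (th q) k j - Real.pi * ξ j := by
  simp [lam, zW]
  ring

theorem sum_et_sq {ξ q : Ix n} (hq : q ≠ 0) : ∑ j, et ξ q j ^ 2 = Real.pi ^ 2 * ln ξ ^ 2 := by
  have h1 : ∑ j, et ξ q j ^ 2 = (Real.pi * ln ξ / ln q) ^ 2 * ∑ j, (q j : ℝ) ^ 2 := by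
    rw [Finset.mul_sum]
    exact Finset.sum_congr rfl fun j _ => by rw [et]; ring
  rw [h1, ← ln_sq]
  have := (ln_pos hq).ne'
  field_simp

theorem sum_et_mul (ξ q : Ix n) (t : V n) :
    ∑ j, et ξ q j * t j = Real.pi * ln ξ / ln q * ∑ j, (q j : ℝ) * t j := by
  rw [Finset.mul_sum]
  exact Finset.sum_congr rfl fun j _ => by rw [et]; ring

theorem sum_et_xi {ξ q : Ix n} (h : ∑ j, q j * ξ j = 0) : ∑ j, et ξ q j * ξ j = 0 := by
  have h1 : ∑ j, (q j : ℝ) * (ξ j : ℝ) = 0 := by exact_mod_cast h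
  rw [sum_et_mul ξ q fun j => (ξ j : ℝ), h1, mul_zero]

theorem sum_q_fr {q : Ix n} (hq : q ≠ 0) (k : Ix n) :
    ∑ j, (q j : ℝ) * fr (th q) k j = ((∑ j, q j * k j : ℤ) : ℝ) + 1 / 2 := by
  have h1 : ∑ j, (q j : ℝ) * fr (th q) k j
      = ∑ j, (q j : ℝ) * k j + (1 / (2 * ln q ^ 2)) * ∑ j, (q j : ℝ) ^ 2 := by
    rw [Finset.mul_sum, ← Finset.sum_add_distrib]
    exact Finset.sum_congr rfl fun j _ => by rw [fr, th]; ring
  rw [h1, ← ln_sq]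
  have := (ln_pos hq).ne'
  push_cast
  congr 1
  field_simp

theorem sym_re {ξ q : Ix n} (k : Ix n) : (sym ξ q k).re
    = ∑ j, et ξ q j ^ 2 - ∑ j, (2 * Real.pi * fr (th q) k j - Real.pi * ξ j) ^ 2 := by
  rw [sym, Complex.re_sum, ← Finset.sum_sub_distrib]
  refine Finset.sum_congr rfl fun j _ => ?_
  rw [pow_two, Complex.mul_re, lam_re, lam_im]
  ring

theorem sym_im {ξ q : Ix n} (hq : q ≠ 0) (h : ∑ j, q j * ξ j = 0) (k : Ix n) :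
    (sym ξ q k).im
      = -(4 * Real.pi * (Real.pi * ln ξ / ln q) * (((∑ j, q j * k j : ℤ) : ℝ) + 1 / 2)) := by
  have h1 : (sym ξ q k).im = -(4 * Real.pi) * (∑ j, et ξ q j * fr (th q) k j)
      + 2 * Real.pi * ∑ j, et ξ q j * ξ j := by
    rw [sym, Complex.im_sum, Finset.mul_sum, Finset.mul_sum, ← Finset.sum_add_distrib]
    refine Finset.sum_congr rfl fun j _ => ?_
    rw [pow_two, Complex.mul_im, lam_re, lam_im]
    ring
  rw [h1, sum_et_xi h, sum_et_mul ξ q (fr (th q) k), sum_q_fr hq k]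
  ring

theorem half_le (m : ℤ) : (1 / 2 : ℝ) ≤ |(m : ℝ) + 1 / 2| := by
  rcases le_or_gt 0 m with h | h
  · have h1 : (0 : ℝ) ≤ m := by exact_mod_cast h
    rw [abs_of_nonneg (by linarith)]
    linarith
  · have h1 : (m : ℝ) ≤ -1 := by
      have : m ≤ -1 := by omega
      exact_mod_cast this
    rw [abs_of_nonpos (by linarith)]
    linarith

/-- **Lower bound of the symbol.** -/
theorem sym_low {ξ q : Ix n} (hq : q ≠ 0) (h : ∑ j, q j * ξ j = 0) (k : Ix n) :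
    2 * Real.pi ^ 2 * ln ξ / ln q ≤ ‖sym ξ q k‖ := by
  refine le_trans ?_ (Complex.abs_im_le_norm _)
  have h0 : 0 ≤ ln ξ := Real.sqrt_nonneg _
  have hpi := Real.pi_pos
  have h1 : 0 ≤ 4 * Real.pi * (Real.pi * ln ξ / ln q) := by
    have := ln_pos hq
    positivity
  rw [sym_im hq h k, abs_neg, abs_mul, abs_of_nonneg h1]
  have h2 := mul_le_mul_of_nonneg_left (half_le (∑ j, q j * k j)) h1
  calc 2 * Real.pi ^ 2 * ln ξ / ln q = 4 * Real.pi * (Real.pi * ln ξ / ln q) * (1 / 2) := by ring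
    _ ≤ _ := h2

theorem lam_norm_sq {ξ q : Ix n} (hq : q ≠ 0) (k : Ix n) :
    ∑ j, ‖lam ξ q k j‖ ^ 2 = 2 * Real.pi ^ 2 * ln ξ ^ 2 - (sym ξ q k).re := by
  have h1 : ∑ j, ‖lam ξ q k j‖ ^ 2
      = ∑ j, et ξ q j ^ 2 + ∑ j, (2 * Real.pi * fr (th q) k j - Real.pi * ξ j) ^ 2 := by
    rw [← Finset.sum_add_distrib]
    refine Finset.sum_congr rfl fun j _ => ?_
    rw [← Complex.normSq_eq_norm_sq, Complex.normSq_apply, lam_re, lam_im]
    ring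
  rw [h1, sym_re, sum_et_sq hq]
  ring

/-- **The symbol controls the square of `λ`.** -/
theorem lam_le {ξ q : Ix n} (hξ : ξ ≠ 0) (hq : q ≠ 0) (h : ∑ j, q j * ξ j = 0) (k : Ix n) :
    ∑ j, ‖lam ξ q k j‖ ^ 2 ≤ (1 + ln ξ * ln q) * ‖sym ξ q k‖ := by
  have hx := ln_pos hξ
  have hQ := ln_pos hq
  have h1 : 2 * Real.pi ^ 2 * ln ξ ^ 2 ≤ ln ξ * ln q * ‖sym ξ q k‖ := by
    have h2 := mul_le_mul_of_nonneg_left (sym_low hq h k) (mul_pos hx hQ).le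
    calc 2 * Real.pi ^ 2 * ln ξ ^ 2 = ln ξ * ln q * (2 * Real.pi ^ 2 * ln ξ / ln q) := by
          field_simp
      _ ≤ _ := h2
  have h3 : -(sym ξ q k).re ≤ ‖sym ξ q k‖ := by
    have := Complex.abs_re_le_norm (sym ξ q k)
    have h4 := neg_abs_le (sym ξ q k).re
    linarith
  rw [lam_norm_sq hq k]
  nlinarith

theorem sym_ne {ξ q : Ix n} (hξ : ξ ≠ 0) (hq : q ≠ 0) (h : ∑ j, q j * ξ j = 0) (k : Ix n) :
    sym ξ q k ≠ 0 := by
  intro h0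
  have h1 := sym_low hq h k
  rw [h0, norm_zero] at h1
  have hx := ln_pos hξ
  have hQ := ln_pos hq
  have hpi := Real.pi_pos
  have : 0 < 2 * Real.pi ^ 2 * ln ξ / ln q := by positivity
  linarith

/-- Each entry of `λ` against the symbol. -/
theorem lam_mul_le {ξ q : Ix n} (hξ : ξ ≠ 0) (hq : q ≠ 0) (h : ∑ j, q j * ξ j = 0) (k : Ix n)
    (i j : Fin n) : ‖lam ξ q k i‖ * ‖lam ξ q k j‖ ≤ (1 + ln ξ * ln q) * ‖sym ξ q k‖ := by
  refine le_trans ?_ (lam_le hξ hq h k)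
  have hi : ‖lam ξ q k i‖ ^ 2 ≤ ∑ j, ‖lam ξ q k j‖ ^ 2 :=
    Finset.single_le_sum (f := fun j => ‖lam ξ q k j‖ ^ 2) (fun _ _ => sq_nonneg _)
      (Finset.mem_univ i)
  have hj : ‖lam ξ q k j‖ ^ 2 ≤ ∑ j, ‖lam ξ q k j‖ ^ 2 :=
    Finset.single_le_sum (f := fun j => ‖lam ξ q k j‖ ^ 2) (fun _ _ => sq_nonneg _)
      (Finset.mem_univ j)
  nlinarith [sq_nonneg (‖lam ξ q k i‖ - ‖lam ξ q k j‖)]

theorem lam_div_le {ξ q : Ix n} (hξ : ξ ≠ 0) (hq : q ≠ 0) (h : ∑ j, q j * ξ j = 0) (k : Ix n)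
    (i j : Fin n) :
    ‖lam ξ q k i / sym ξ q k‖ * ‖lam ξ q k j‖ ≤ 1 + ln ξ * ln q := by
  have h1 : 0 < ‖sym ξ q k‖ := norm_pos_iff.mpr (sym_ne hξ hq h k)
  rw [norm_div, div_mul_eq_mul_div, div_le_iff₀ h1]
  exact lam_mul_le hξ hq h k i j

theorem zU_norm {ξ q : Ix n} (hq : q ≠ 0) (j : Fin n) : ‖zU ξ q j‖ ≤ 2 * Real.pi * ln ξ := by
  have hpi := Real.pi_pos
  have h0 : 0 ≤ ln ξ := Real.sqrt_nonneg _
  have h1 : |et ξ q j| ≤ Real.pi * ln ξ := by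
    apply abs_le_of_sq_le_sq _ (by positivity)
    rw [mul_pow, ← sum_et_sq hq]
    exact Finset.single_le_sum (f := fun j => et ξ q j ^ 2) (fun _ _ => sq_nonneg _)
      (Finset.mem_univ j)
  have h2 : |Real.pi * (ξ j : ℝ)| ≤ Real.pi * ln ξ := by
    apply abs_le_of_sq_le_sq _ (by positivity)
    rw [mul_pow, mul_pow, ln_sq]
    exact mul_le_mul_of_nonneg_left (Finset.single_le_sum (f := fun j => (ξ j : ℝ) ^ 2)
      (fun _ _ => sq_nonneg _) (Finset.mem_univ j)) (by positivity)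
  calc ‖zU ξ q j‖ ≤ ‖((et ξ q j : ℝ) : ℂ)‖ + ‖((Real.pi * ξ j : ℝ) : ℂ) * Complex.I‖ :=
        norm_sub_le _ _
    _ = |et ξ q j| + |Real.pi * (ξ j : ℝ)| := by
        rw [norm_mul, Complex.norm_I, mul_one, Complex.norm_real, Complex.norm_real,
          Real.norm_eq_abs, Real.norm_eq_abs]
    _ ≤ _ := by linarith

theorem zW_norm {ξ q : Ix n} (hq : q ≠ 0) (j : Fin n) : ‖zW ξ q j‖ ≤ 2 * Real.pi * ln ξ := by
  have hpi := Real.pi_pos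
  have h0 : 0 ≤ ln ξ := Real.sqrt_nonneg _
  have h1 : |et ξ q j| ≤ Real.pi * ln ξ := by
    apply abs_le_of_sq_le_sq _ (by positivity)
    rw [mul_pow, ← sum_et_sq hq]
    exact Finset.single_le_sum (f := fun j => et ξ q j ^ 2) (fun _ _ => sq_nonneg _)
      (Finset.mem_univ j)
  have h2 : |Real.pi * (ξ j : ℝ)| ≤ Real.pi * ln ξ := by
    apply abs_le_of_sq_le_sq _ (by positivity)
    rw [mul_pow, mul_pow, ln_sq]
    exact mul_le_mul_of_nonneg_left (Finset.single_le_sum (f := fun j => (ξ j : ℝ) ^ 2)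
      (fun _ _ => sq_nonneg _) (Finset.mem_univ j)) (by positivity)
  calc ‖zW ξ q j‖ ≤ ‖-((et ξ q j : ℝ) : ℂ)‖ + ‖((Real.pi * ξ j : ℝ) : ℂ) * Complex.I‖ :=
        norm_sub_le _ _
    _ = |et ξ q j| + |Real.pi * (ξ j : ℝ)| := by
        rw [norm_neg, norm_mul, Complex.norm_I, mul_one, Complex.norm_real, Complex.norm_real,
          Real.norm_eq_abs, Real.norm_eq_abs]
    _ ≤ _ := by linarith

/-- `z · z = 0`. -/
theorem sum_zU_sq {ξ q : Ix n} (hq : q ≠ 0) (h : ∑ j, q j * ξ j = 0) :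
    ∑ j, zU ξ q j ^ 2 = 0 := by
  have h1 : ∑ j, zU ξ q j ^ 2
      = ((∑ j, et ξ q j ^ 2 - Real.pi ^ 2 * ∑ j, (ξ j : ℝ) ^ 2 : ℝ) : ℂ)
        - 2 * Real.pi * Complex.I * ((∑ j, et ξ q j * ξ j : ℝ) : ℂ) := by
    push_cast
    rw [Finset.mul_sum, Finset.mul_sum, ← Finset.sum_sub_distrib, ← Finset.sum_sub_distrib]
    refine Finset.sum_congr rfl fun j _ => ?_
    rw [zU]
    push_cast
    linear_combination (Real.pi * (ξ j : ℂ)) ^ 2 * Complex.I_sq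
  rw [h1, sum_et_sq hq, sum_et_xi h, ← ln_sq]
  simp

/-- `z' · z' = 0`. -/
theorem sum_zW_sq {ξ q : Ix n} (hq : q ≠ 0) (h : ∑ j, q j * ξ j = 0) :
    ∑ j, zW ξ q j ^ 2 = 0 := by
  have h1 : ∑ j, zW ξ q j ^ 2
      = ((∑ j, et ξ q j ^ 2 - Real.pi ^ 2 * ∑ j, (ξ j : ℝ) ^ 2 : ℝ) : ℂ)
        + 2 * Real.pi * Complex.I * ((∑ j, et ξ q j * ξ j : ℝ) : ℂ) := by
    push_cast
    rw [Finset.mul_sum, Finset.mul_sum, ← Finset.sum_sub_distrib, ← Finset.sum_add_distrib]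
    refine Finset.sum_congr rfl fun j _ => ?_
    rw [zW]
    push_cast
    linear_combination (Real.pi * (ξ j : ℂ)) ^ 2 * Complex.I_sq
  rw [h1, sum_et_sq hq, sum_et_xi h, ← ln_sq]
  simp

theorem zU_add_zW (ξ q : Ix n) (j : Fin n) :
    zU ξ q j + zW ξ q j = -(2 * Real.pi * Complex.I * ((ξ j : ℝ) : ℂ)) := by
  rw [zU, zW]
  push_cast
  ring

end Vale.Agent.P088.LR.H127
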